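import Vale.Agent.P125.Defs
import Vale.Agent.P125.Renorm

open Vale.Agent.P125

/-- Every real Banach space with Markov type `p` for some `p > 1` admits an equivalent uniformly
smooth norm, and an equivalent uniformly convex norm (it is superreflexive). -/
theorem Vale.Agent.Results.P125.MarkovSmooth.result
    (X : Type*) [NormedAddCommGroup X] [NormedSpace ℝ X] [CompleteSpace X]
    (p : ℝ) (hp : 1 < p) (hX : HasMarkovType X p) :
    (∃ N : Seminorm ℝ X, IsEquivNorm N ∧ IsUniformlySmooth N) ∧
    (∃ N : Seminorm ℝ X, IsEquivNorm N ∧ IsUniformlyConvex N) :=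
  ⟨exists_smooth hp hX, exists_convex hp hX⟩
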